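import Vale.Agent.Lib.P254.H27.Step
import Vale.Agent.Lib.P254.BipAffine

/-!
# The lifted bipyramid over a convex hull is a convex hull

For a set `S ⊆ ℝ^n` containing the origin, the bipyramid over `convexHull ℝ S` is the convex hull
of its two apexes and of the embedded points `(0; s)`, `s ∈ S`; after the translation by
`(t, 0, …, 0)` (`liftBip`) the generators are `0`, `(1 + t, 0, …, 0)` and `(t; s)`, `s ∈ S`.
-/

namespace Vale.Agent.Lib.P254
open Set

variable {n : ℕ}

/-- an embedded point `(0; k)`, `k ∈ convexHull ℝ S`, lies in the hull of the embedded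
generators `(0; s)`, `s ∈ S` -/
theorem baseHull_mem (S : Set (Fin n → ℝ)) {k : Fin n → ℝ} (hk : k ∈ convexHull ℝ S) :
    (Fin.cons 0 k : Fin (n + 1) → ℝ)
      ∈ convexHull ℝ ((fun s => (Fin.cons 0 s : Fin (n + 1) → ℝ)) '' S) := by
  have hconv : Convex ℝ {k : Fin n → ℝ | (Fin.cons 0 k : Fin (n + 1) → ℝ)
      ∈ convexHull ℝ ((fun s => (Fin.cons 0 s : Fin (n + 1) → ℝ)) '' S)} := by
    intro x hx y hy a b ha hb hab
    have e : (Fin.cons 0 (a • x + b • y) : Fin (n + 1) → ℝ)
        = a • (Fin.cons 0 x : Fin (n + 1) → ℝ) + b • (Fin.cons 0 y : Fin (n + 1) → ℝ) := by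
      ext i
      refine Fin.cases ?_ (fun j => ?_) i
      · simp
      · simp
    show (Fin.cons 0 (a • x + b • y) : Fin (n + 1) → ℝ)
      ∈ convexHull ℝ ((fun s => (Fin.cons 0 s : Fin (n + 1) → ℝ)) '' S)
    rw [e]
    exact convex_convexHull ℝ _ hx hy ha hb hab
  have hsub : S ⊆ {k : Fin n → ℝ | (Fin.cons 0 k : Fin (n + 1) → ℝ)
      ∈ convexHull ℝ ((fun s => (Fin.cons 0 s : Fin (n + 1) → ℝ)) '' S)} :=
    fun s hs => subset_convexHull ℝ _ ⟨s, hs, rfl⟩
  exact convexHull_min hsub hconv hk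

/-- The bipyramid over `convexHull ℝ S`, `0 ∈ S`, is the convex hull of the two apexes and the
embedded generators. -/
theorem bipyramid_hull {t : ℝ} (ht : 0 < t) (S : Set (Fin n → ℝ))
    (h0 : (0 : Fin n → ℝ) ∈ S) :
    bipyramid t (convexHull ℝ S)
      = convexHull ℝ (insert (apexUp n) (insert (apexDown n t)
          ((fun s => (Fin.cons 0 s : Fin (n + 1) → ℝ)) '' S))) := by
  have h0' : (0 : Fin n → ℝ) ∈ convexHull ℝ S := subset_convexHull ℝ S h0
  apply Subset.antisymm
  · have hsub : convexHull ℝ ((fun s => (Fin.cons 0 s : Fin (n + 1) → ℝ)) '' S)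
        ⊆ convexHull ℝ (insert (apexUp n) (insert (apexDown n t)
          ((fun s => (Fin.cons 0 s : Fin (n + 1) → ℝ)) '' S))) :=
      convexHull_mono ((subset_insert _ _).trans (subset_insert _ _))
    have hup : apexUp n ∈ convexHull ℝ (insert (apexUp n) (insert (apexDown n t)
          ((fun s => (Fin.cons 0 s : Fin (n + 1) → ℝ)) '' S))) :=
      subset_convexHull ℝ _ (mem_insert _ _)
    have hdown : apexDown n t ∈ convexHull ℝ (insert (apexUp n) (insert (apexDown n t)
          ((fun s => (Fin.cons 0 s : Fin (n + 1) → ℝ)) '' S))) :=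
      subset_convexHull ℝ _ (mem_insert_of_mem _ (mem_insert _ _))
    rintro x (⟨h1, h2, κ, hκ, hx⟩ | ⟨h1, h2, κ, hκ, hx⟩)
    · have e : x = x 0 • apexUp n + (1 - x 0) • (Fin.cons 0 κ : Fin (n + 1) → ℝ) := by
        ext i
        refine Fin.cases ?_ (fun k => ?_) i
        · simp [apexUp]
        · simp [apexUp, hx k]
      rw [e]
      exact convex_convexHull ℝ _ hup (hsub (baseHull_mem S hκ)) h1 (by linarith) (by ring)
    · have h3 : 0 ≤ -x 0 / t := div_nonneg (by linarith) ht.le
      have h4 : -x 0 / t ≤ 1 := by rw [div_le_one ht]; linarith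
      have e : x = (-x 0 / t) • apexDown n t
          + (1 + x 0 / t) • (Fin.cons 0 κ : Fin (n + 1) → ℝ) := by
        ext i
        refine Fin.cases ?_ (fun k => ?_) i
        · simp [apexDown]
          field_simp
        · simp [apexDown, hx k]
      rw [e]
      refine convex_convexHull ℝ _ hdown (hsub (baseHull_mem S hκ)) h3 ?_ (by ring)
      have : x 0 / t = -(-x 0 / t) := by ring
      linarith
  · apply convexHull_min _ (bipyramid_convex ht (convex_convexHull ℝ S) h0')
    rw [insert_subset_iff, insert_subset_iff]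
    refine ⟨?_, ?_, ?_⟩
    · left
      exact ⟨by simp [apexUp], by simp [apexUp], 0, h0', fun i => by simp [apexUp]⟩
    · right
      refine ⟨by simp [apexDown], ?_, 0, h0', fun i => by simp [apexDown]⟩
      simp only [apexDown, Fin.cons_zero]
      linarith
    · rintro _ ⟨s, hs, rfl⟩
      left
      exact ⟨by simp, by simp, s, subset_convexHull ℝ S hs, fun i => by simp⟩

theorem affMap_one (c x : Fin n → ℝ) :
    affMap (1 : Matrix (Fin n) (Fin n) ℝ) c x = x + c := by
  ext i
  rw [affMap_apply]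
  simp [Matrix.one_apply]

/-- The lifted bipyramid over `convexHull ℝ S`, `0 ∈ S`, is the convex hull of `0`,
`(1 + t, 0, …, 0)` and the points `(t; s)`, `s ∈ S`. -/
theorem liftBip_convexHull {n : ℕ} {t : ℝ} (ht : 0 < t) (S : Set (Fin n → ℝ))
    (h0 : (0 : Fin n → ℝ) ∈ S) :
    liftBip t (convexHull ℝ S)
      = convexHull ℝ (insert (0 : Fin (n + 1) → ℝ) (insert (Fin.cons (1 + t) 0)
          ((fun s => (Fin.cons t s : Fin (n + 1) → ℝ)) '' S))) := by
  have e1 : affMap (1 : Matrix (Fin (n + 1)) (Fin (n + 1)) ℝ) (Fin.cons t (0 : Fin n → ℝ))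
      (apexUp n) = (Fin.cons (1 + t) 0 : Fin (n + 1) → ℝ) := by
    rw [affMap_one]
    ext i
    refine Fin.cases ?_ (fun j => ?_) i
    · simp [apexUp]
    · simp [apexUp]
  have e2 : affMap (1 : Matrix (Fin (n + 1)) (Fin (n + 1)) ℝ) (Fin.cons t (0 : Fin n → ℝ))
      (apexDown n t) = (0 : Fin (n + 1) → ℝ) := by
    rw [affMap_one]
    ext i
    refine Fin.cases ?_ (fun j => ?_) i
    · simp [apexDown]
    · simp [apexDown]
  have e3 : (affMap (1 : Matrix (Fin (n + 1)) (Fin (n + 1)) ℝ) (Fin.cons t (0 : Fin n → ℝ)))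
      ∘ (fun s : Fin n → ℝ => (Fin.cons 0 s : Fin (n + 1) → ℝ))
      = fun s : Fin n → ℝ => (Fin.cons t s : Fin (n + 1) → ℝ) := by
    funext s
    show affMap (1 : Matrix (Fin (n + 1)) (Fin (n + 1)) ℝ) (Fin.cons t (0 : Fin n → ℝ))
      (Fin.cons 0 s) = Fin.cons t s
    rw [affMap_one]
    ext i
    refine Fin.cases ?_ (fun j => ?_) i
    · simp
    · simp
  unfold liftBip
  rw [bipyramid_hull ht S h0, affMap_image_convexHull, image_insert_eq, image_insert_eq,
    ← image_comp, e1, e2, e3, insert_comm]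

end Vale.Agent.Lib.P254
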